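import Vale.Agent.P073.Final3

/-!
# P073: increasing triangular Sobolev homeomorphisms of the cube are diffeomorphically approximable

For every `1 ≤ p < ∞`, every `W^{1,p}` homeomorphism of the open unit cube of `ℝ³` onto itself which
is of increasing triangular (Knothe-Rosenblatt) form is a `W^{1,p}` limit of `C^∞` diffeomorphisms
of the cube onto itself.
-/

namespace Vale.Agent.Results.P073.TriangularCube

open Vale.Agent.P073

theorem result (p : ℝ) (hp : 1 ≤ p) (f : R3 → R3) (Df : R3 → Fin 3 → Fin 3 → ℝ)
    (hf : IsHomeoOn cube cube f) (hW : IsW1p p cube f Df) (htri : IsIncrTriangularOn cube f) :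
    DiffeoApproximable p cube cube f Df :=
  triangular_approximable hp hf hW htri

end Vale.Agent.Results.P073.TriangularCube
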